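import Vale.Agent.P217.Int
import Vale.Agent.P217.Cls

namespace Vale.Agent.Results.P217.Chai

open Vale.Agent.P217

theorem result (p n : ℕ) [Fact p.Prime] (hn : 1 ≤ n) :
    (∃! F : FormalGroup (E0 p n), IsLT p n F) ∧
    ∀ F : FormalGroup (E0 p n), IsLT p n F →
      F.IsComm ∧
      nser (F.map (res p n)) p = PowerSeries.X ^ (p ^ n) ∧
      IsUniversal p n F ∧
      (∀ (τ : kk p n ≃+* kk p n) (g : PowerSeries (kk p n)), IsAut p n F g →
        ∃! σ : E0 p n ≃+* E0 p n, Acts p n F τ g σ) ∧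
      (∀ P : Ideal (E0 p n), (P.IsPrime ∧ Inv p n F P) ↔ ∃ h ≤ n, P = II p n h) ∧
      (∀ J : Ideal (E0 p n), (J.IsRadical ∧ Inv p n F J) ↔ (J = ⊤ ∨ ∃ h ≤ n, J = II p n h)) := by
  refine ⟨?_, fun F hF => ⟨hF.isComm, hF.pser_res hn, hF.universal hn,
    fun τ g hg => hF.acts_exists hn τ g hg, hF.prime_iff hn, hF.radical_iff hn⟩⟩
  obtain ⟨F, hF⟩ := exists_isLT p n
  exact ⟨F, hF, fun F' hF' => hF'.unique hF⟩

end Vale.Agent.Results.P217.Chai
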